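import Mathlib

/-! Two one-coordinate inequalities (rows S1, S2 of helper498's line). -/

namespace Vale.Agent.P331.H885

/-- (S2): the two point inequality behind the fourth moment count. -/
theorem s2 {a b p : ℝ} (ha : 0 ≤ a) (hb : 0 ≤ b) (hp : 0 ≤ p) (hp1 : p ≤ 2⁻¹^23) :
    p*(max a (b/2))^4 + 2⁻¹^23*b^4 + 1/8*((1 - 2⁻¹^20)*a + 2⁻¹^20*b)^4
      + 1/4*((1 - 2⁻¹^8)*a + 2⁻¹^8*b)^4 + (1 - p - 2⁻¹^23 - 1/8 - 1/4)*a^4
      ≤ ((1 - (2⁻¹^22 + 2⁻¹^10))*a^2 + (2⁻¹^22 + 2⁻¹^10)*b^2)^2 := by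
  have key : ((1 - (2⁻¹^22 + 2⁻¹^10))*a^2 + (2⁻¹^22 + 2⁻¹^10)*b^2)^2
      - (2⁻¹^23*b^4 + 1/8*((1 - 2⁻¹^20)*a + 2⁻¹^20*b)^4
      + 1/4*((1 - 2⁻¹^8)*a + 2⁻¹^8*b)^4 + (1 - 2⁻¹^23 - 1/8 - 1/4)*a^4)
      = (b-a)^2 * (18679061691490195472383/9671406556917033397649408 * a^2
        + 7787287255430725633/4835703278458516698824704 * (a*b)
        + 8074391731677691903/9671406556917033397649408 * b^2 : ℝ) := by
    ring
  have hq : (8/10000000 : ℝ) * (a+b)^2 ≤ 18679061691490195472383/9671406556917033397649408 * a^2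
        + 7787287255430725633/4835703278458516698824704 * (a*b)
        + 8074391731677691903/9671406556917033397649408 * b^2 := by
    have h1 : 0 ≤ a*b := mul_nonneg ha hb
    nlinarith [sq_nonneg a, sq_nonneg b, h1]
  have hD : (8/10000000 : ℝ) * (b^2-a^2)^2 ≤ ((1 - (2⁻¹^22 + 2⁻¹^10))*a^2 + (2⁻¹^22 + 2⁻¹^10)*b^2)^2
      - (2⁻¹^23*b^4 + 1/8*((1 - 2⁻¹^20)*a + 2⁻¹^20*b)^4
      + 1/4*((1 - 2⁻¹^8)*a + 2⁻¹^8*b)^4 + (1 - 2⁻¹^23 - 1/8 - 1/4)*a^4) := by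
    rw [key]
    have h2 := mul_le_mul_of_nonneg_left hq (sq_nonneg (b-a))
    calc (8/10000000 : ℝ) * (b^2-a^2)^2 = (b-a)^2 * (8/10000000 * (a+b)^2) := by ring
      _ ≤ _ := h2
  rcases le_total (b/2) a with h | h
  · rw [max_eq_left h]
    have h3 : (0:ℝ) ≤ (8/10000000 : ℝ) * (b^2-a^2)^2 := by positivity
    linarith
  · rw [max_eq_right h]
    have h4 : p * (b/2)^4 ≤ 2⁻¹^23 * (b/2)^4 :=
      mul_le_mul_of_nonneg_right hp1 (by positivity)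
    have h5 : 0 ≤ p * a^4 := by positivity
    have h6 : a^2 ≤ b^2/4 := by nlinarith
    have h7 : (3/4*b^2)^2 ≤ (b^2-a^2)^2 := by
      apply pow_le_pow_left₀ (by positivity)
      linarith
    have h8 : (2⁻¹:ℝ)^23 * (b/2)^4 ≤ (8/10000000 : ℝ) * (3/4*b^2)^2 := by
      have : (0:ℝ) ≤ b^4 := by positivity
      norm_num
      nlinarith
    have h9 : (8/10000000 : ℝ) * (3/4*b^2)^2 ≤ (8/10000000 : ℝ) * (b^2-a^2)^2 := by
      apply mul_le_mul_of_nonneg_left h7 (by norm_num)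
    have e : (1 - p - 2⁻¹^23 - 1/8 - 1/4)*a^4 = (1 - 2⁻¹^23 - 1/8 - 1/4)*a^4 - p*a^4 := by ring
    rw [e]
    linarith

/-- Bonferroni. -/
theorem bon (n : ℕ) {x : ℝ} (h0 : 0 ≤ x) (h1 : x ≤ 1) :
    (1-x)^n ≤ 1 - n*x + (n*(n-1)/2)*x^2 := by
  induction n with
  | zero => simp
  | succ n ih =>
    have h2 : (1-x)^(n+1) ≤ (1-x)*(1 - n*x + (n*(n-1)/2)*x^2) := by
      rw [pow_succ, mul_comm]
      exact mul_le_mul_of_nonneg_left ih (by linarith)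
    refine h2.trans ?_
    push_cast
    have h3 : (0:ℝ) ≤ (n*(n-1)/2) * x^3 := by
      rcases Nat.eq_zero_or_pos n with h | h
      · subst h; simp
      · have : (1:ℝ) ≤ n := by exact_mod_cast h
        have h4 : (0:ℝ) ≤ (n:ℝ) - 1 := by linarith
        positivity
    nlinarith

/-- Bernoulli for the sixth power. -/
theorem bern6 {y : ℝ} (_h0 : 0 ≤ y) (h1 : y ≤ 1) : 1 - 6*y ≤ (1-y)^6 := by
  have := one_add_mul_le_pow (a := -y) (by linarith) 6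
  simp only [Nat.cast_ofNat, mul_neg] at this
  calc 1 - 6*y = 1 + -(6*y) := by ring
    _ ≤ (1 + -y)^6 := this
    _ = (1-y)^6 := by ring

theorem ratio_le {u w : ℝ} (hu0 : 0 ≤ u) (hu1 : u ≤ 1) (hw0 : 0 ≤ w) (hw1 : w ≤ 1) :
    (1 - 2⁻¹^8*u)^14 / (1 - 2⁻¹^8*w)^6
      ≤ 1 - 14*(2⁻¹^8*u) + 6*(2⁻¹^8*w) + 98*((2⁻¹^8*u)^2 + (2⁻¹^8*w)^2) := by
  have hx : ∀ s : ℝ, 0 ≤ s → s ≤ 1 → 0 ≤ 2⁻¹^8*s ∧ 2⁻¹^8*s ≤ 1/256 := by
    intro s h0 h1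
    constructor
    · positivity
    · norm_num; linarith
  obtain ⟨x0, x1⟩ := hx u hu0 hu1
  obtain ⟨y0, y1⟩ := hx w hw0 hw1
  generalize (2⁻¹:ℝ)^8*u = x at *
  generalize (2⁻¹:ℝ)^8*w = y at *
  have hpos : 0 < (1-y)^6 := by
    have : 0 < 1 - y := by linarith
    positivity
  rw [div_le_iff₀ hpos]
  have hb := bon 14 x0 (by linarith)
  norm_num at hb
  have hr : 0 ≤ 1 - 14*x + 6*y + 98*(x^2+y^2) := by nlinarith
  have h6 := mul_le_mul_of_nonneg_left (bern6 y0 (by linarith)) hr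
  have h7 : (1 - 14*x + 91*x^2) ≤ (1 - 14*x + 6*y + 98*(x^2+y^2)) * (1-6*y) := by
    have hxy : 0 ≤ x*y := mul_nonneg x0 y0
    have e : (1 - 14*x + 6*y + 98*(x^2+y^2)) * (1-6*y) - (1 - 14*x + 91*x^2)
        = 7*x^2 + 62*y^2 + 84*(x*y) - 588*y*(x^2+y^2) := by ring
    have h8 : 588*y*(x^2+y^2) ≤ 588*(1/256)*(x^2+y^2) := by
      apply mul_le_mul_of_nonneg_right _ (by positivity)
      linarith
    nlinarith [sq_nonneg x, sq_nonneg y]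
  linarith

theorem small_le {w : ℝ} (hw0 : 0 ≤ w) (hw1 : w ≤ 1) :
    1 / (1 - 2⁻¹^20*w)^6 ≤ 1 + 6*(2⁻¹^20*w) + 40*(2⁻¹^20*w)^2 := by
  have y0 : 0 ≤ (2⁻¹:ℝ)^20*w := by positivity
  have y1 : (2⁻¹:ℝ)^20*w ≤ 1/256 := by norm_num; linarith
  generalize (2⁻¹:ℝ)^20*w = y at *
  have hpos : 0 < (1-y)^6 := by
    have : 0 < 1 - y := by linarith
    positivity
  rw [div_le_iff₀ hpos]
  have h6 := mul_le_mul_of_nonneg_left (bern6 y0 (by linarith))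
    (show 0 ≤ 1 + 6*y + 40*y^2 by positivity)
  have h7 : (1:ℝ) ≤ (1 + 6*y + 40*y^2) * (1-6*y) := by
    have e : (1 + 6*y + 40*y^2) * (1-6*y) - 1 = y^2*(4 - 240*y) := by ring
    have : 0 ≤ y^2*(4 - 240*y) := by
      apply mul_nonneg (sq_nonneg _)
      linarith
    linarith
  linarith

/-- `T`: strict joint convexity of `b^14 / a^6`. -/
theorem T_le {a b : ℝ} (ha : 0 < a) (ha1 : a ≤ 1) (hb : 0 ≤ b) (hb1 : b ≤ 1) :
    1 + 6*(1-a) - 14*(1-b) + 7/9*((1-b)^2 + (1-a)^2) ≤ b^14/a^6 := by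
  have h1 : 7*b^2 - 6*a + 6*(b^2-a)^2 ≤ b^14/a^6 := by
    rw [le_div_iff₀ (by positivity)]
    have hx : 0 ≤ b^2 := sq_nonneg b
    have e : b^14 - (7*b^2 - 6*a + 6*(b^2-a)^2)*a^6
        = (b^2-a)^2*((b^2)^5 + 2*(b^2)^4*a + 3*(b^2)^3*a^2 + 4*(b^2)^2*a^3 + 5*b^2*a^4
          + 6*a^5*(1-a)) := by ring
    have h2 : 0 ≤ (b^2-a)^2*((b^2)^5 + 2*(b^2)^4*a + 3*(b^2)^3*a^2 + 4*(b^2)^2*a^3 + 5*b^2*a^4
          + 6*a^5*(1-a)) := by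
      have : 0 ≤ 1 - a := by linarith
      positivity
    linarith
  have h3 : 7/9*((1-b)^2 + (1-a)^2) ≤ 7*(1-b)^2 + 6*(b^2-a)^2 := by
    -- 1 - a = s + 2u - u^2 with s = b^2 - a
    have hu : 0 ≤ 1 - b := by linarith
    have h4 : (1-a)^2 ≤ 2*(b^2-a)^2 + 8*(1-b)^2 := by
      have e1 : 1 - a = (b^2-a) + (1-b)*(1+b) := by ring
      have h5 : ((1-b)*(1+b))^2 ≤ 4*(1-b)^2 := by
        have : (1+b)^2 ≤ 4 := by nlinarith
        nlinarith [sq_nonneg (1-b)]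
      rw [e1]
      nlinarith [sq_nonneg ((b^2-a) - (1-b)*(1+b))]
    nlinarith [sq_nonneg (b^2-a), sq_nonneg (1-b)]
  nlinarith

theorem norm1 {a b : ℝ} (ha : 0 < a) (ha1 : a ≤ 1) (hb : 0 ≤ b) (hb1 : b ≤ 1) :
    2⁻¹^23 * (b^14 / (min 1 (2*a))^6) + 1/8 * (1 / (1 - 2⁻¹^20*(1-a))^6)
      + 1/4 * ((1 - 2⁻¹^8*(1-b))^14 / (1 - 2⁻¹^8*(1-a))^6)
      ≤ (1/8 + 1/4 - 2⁻¹^10) + (2⁻¹^23 + 2⁻¹^10) * (b^14/a^6) := by
  have hT := T_le ha ha1 hb hb1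
  have hR := ratio_le (u := 1-b) (w := 1-a) (by linarith) (by linarith) (by linarith) (by linarith)
  have hS := small_le (w := 1-a) (by linarith) (by linarith)
  have hu0 : 0 ≤ 1 - b := by linarith
  have hu1 : 1 - b ≤ 1 := by linarith
  have hw0 : 0 ≤ 1 - a := by linarith
  have hw1 : 1 - a ≤ 1 := by linarith
  set H := b^14/a^6 with hH
  rcases le_total 1 (2*a) with h | h
  · rw [min_eq_left h]
    have hB := bon 14 hu0 hu1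
    have e14 : (1 - (1-b))^14 = b^14 := by ring
    rw [e14] at hB
    norm_num at hB hR hS ⊢
    nlinarith [sq_nonneg (1-b), sq_nonneg (1-a)]
  · rw [min_eq_right h]
    have e2 : b^14/(2*a)^6 = H/64 := by
      rw [hH, mul_pow]
      field_simp
      norm_num
    rw [e2]
    norm_num at hR hS ⊢
    have hw2 : (1/4 : ℝ) ≤ (1-a)^2 := by nlinarith
    nlinarith [sq_nonneg (1-b), sq_nonneg (1-a)]

/-- (S1): the one coordinate inequality of the joint reverse Lipschitz step. -/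
theorem s1 {B0 B1 C A : ℝ} (hB1 : 0 ≤ B1) (hB : B1 ≤ B0) (hA : 0 < A) (hC : A ≤ C) :
    2⁻¹^23 * (B1^14 / (min C (2*A))^6) + 2⁻¹^23 * (B1^14 / A^6)
      + 1/8 * (B0^14 / ((1 - 2⁻¹^20)*C + 2⁻¹^20*A)^6)
      + 1/4 * (((1 - 2⁻¹^8)*B0 + 2⁻¹^8*B1)^14 / ((1 - 2⁻¹^8)*C + 2⁻¹^8*A)^6)
      ≤ (1/8 + 1/4 - 2⁻¹^10) * (B0^14 / C^6) + (2⁻¹^22 + 2⁻¹^10) * (B1^14 / A^6) := by
  have hC0 : 0 < C := lt_of_lt_of_le hA hC
  rcases eq_or_lt_of_le (hB1.trans hB) with h0 | h0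
  · have hB1' : B1 = 0 := le_antisymm (h0 ▸ hB) hB1
    rw [← h0, hB1']
    simp
  · obtain ⟨b, rfl⟩ : ∃ b, B1 = b * B0 := ⟨B1/B0, by field_simp⟩
    obtain ⟨a, rfl⟩ : ∃ a, A = a * C := ⟨A/C, by field_simp⟩
    have ha : 0 < a := by
      by_contra hcon
      have : a * C ≤ 0 := mul_nonpos_of_nonpos_of_nonneg (not_lt.mp hcon) hC0.le
      linarith
    have ha1 : a ≤ 1 := by
      by_contra hcon
      have : 1 * C < a * C := mul_lt_mul_of_pos_right (not_le.mp hcon) hC0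
      linarith
    have hb : 0 ≤ b := by
      by_contra hcon
      have : b * B0 < 0 := mul_neg_of_neg_of_pos (not_le.mp hcon) h0
      linarith
    have hb1 : b ≤ 1 := by
      by_contra hcon
      have : 1 * B0 < b * B0 := mul_lt_mul_of_pos_right (not_le.mp hcon) h0
      linarith
    have hn := norm1 ha ha1 hb hb1
    have hm : min C (2*(a*C)) = C * min 1 (2*a) := by
      rw [mul_min_of_nonneg _ _ hC0.le]
      congr 1 <;> ring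
    have hmpos : 0 < min 1 (2*a) := lt_min one_pos (by linarith)
    have hK : 0 ≤ B0^14/C^6 := by positivity
    have hd1 : 0 < 1 - 2⁻¹^20*(1-a) := by
      have : (2⁻¹:ℝ)^20*(1-a) < 1 := by norm_num; linarith
      linarith
    have hd2 : 0 < 1 - 2⁻¹^8*(1-a) := by
      have : (2⁻¹:ℝ)^8*(1-a) < 1 := by norm_num; linarith
      linarith
    have q1 : (b*B0)^14 / (C * min 1 (2*a))^6 = (B0^14/C^6) * (b^14/(min 1 (2*a))^6) := by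
      rw [mul_pow, mul_pow]; field_simp
    have q2 : (b*B0)^14 / (a*C)^6 = (B0^14/C^6) * (b^14/a^6) := by
      rw [mul_pow, mul_pow]; field_simp
    have q3 : B0^14 / ((1 - 2⁻¹^20)*C + 2⁻¹^20*(a*C))^6
        = (B0^14/C^6) * (1 / (1 - 2⁻¹^20*(1-a))^6) := by
      have : (1 - 2⁻¹^20)*C + 2⁻¹^20*(a*C) = C*(1 - 2⁻¹^20*(1-a)) := by ring
      rw [this, mul_pow]
      field_simp
    have q4 : ((1 - 2⁻¹^8)*B0 + 2⁻¹^8*(b*B0))^14 / ((1 - 2⁻¹^8)*C + 2⁻¹^8*(a*C))^6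
        = (B0^14/C^6) * ((1 - 2⁻¹^8*(1-b))^14 / (1 - 2⁻¹^8*(1-a))^6) := by
      have e1 : (1 - 2⁻¹^8)*C + 2⁻¹^8*(a*C) = C*(1 - 2⁻¹^8*(1-a)) := by ring
      have e2 : (1 - 2⁻¹^8)*B0 + 2⁻¹^8*(b*B0) = B0*(1 - 2⁻¹^8*(1-b)) := by ring
      rw [e1, e2, mul_pow, mul_pow]
      field_simp
    rw [hm, q1, q2, q3, q4]
    have hfin := mul_le_mul_of_nonneg_left hn hK
    have e23 : (2⁻¹:ℝ)^22 = 2⁻¹^23 + 2⁻¹^23 := by norm_num
    rw [e23]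
    nlinarith [hfin]

end Vale.Agent.P331.H885
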